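import Mathlib

/-!
# Coboundary expansion of finite pure simplicial complexes over `ZMod 2`

A complex on the vertex type `V` is a finite set `K` of finite subsets of `V` (its faces).
Cochains are functions `Finset V → ZMod 2`; only their values on the faces of the relevant
cardinality matter.
-/

namespace Vale.Agent.Lib.P067

open Finset

variable {V : Type*} [DecidableEq V]

/-- `K` is a pure `d`-dimensional simplicial complex with vertex set `V`: faces are nonempty,
nonempty subsets of faces are faces, every vertex is a face, and every face lies in a face with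
`d + 1` vertices. -/
def IsPureComplex [Fintype V] (K : Finset (Finset V)) (d : ℕ) : Prop :=
  (∀ s ∈ K, s.Nonempty) ∧ (∀ s ∈ K, ∀ t : Finset V, t ⊆ s → t.Nonempty → t ∈ K) ∧
    (∀ v : V, {v} ∈ K) ∧ (∀ s ∈ K, ∃ t ∈ K, s ⊆ t ∧ t.card = d + 1)

/-- the faces with `i + 1` vertices -/
def faces (K : Finset (Finset V)) (i : ℕ) : Finset (Finset V) := K.filter (fun s => s.card = i + 1)

/-- the weight of an `i`-face `σ` in a `d`-dimensional complex: the number of `d`-faces
containing `σ`, divided by `(d+1 choose i+1)` times the number of `d`-faces -/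
noncomputable def weight (K : Finset (Finset V)) (d i : ℕ) (σ : Finset V) : ℝ :=
  (((faces K d).filter (fun τ => σ ⊆ τ)).card : ℝ) /
    (((d + 1).choose (i + 1) : ℝ) * ((faces K d).card : ℝ))

/-- the norm of an `i`-cochain: total weight of the `i`-faces on which it does not vanish -/
noncomputable def cnorm (K : Finset (Finset V)) (d i : ℕ) (f : Finset V → ZMod 2) : ℝ :=
  ∑ σ ∈ (faces K i).filter (fun σ => f σ ≠ 0), weight K d i σ

/-- the coboundary: `(δ f)(τ)` is the sum of `f` over the sets `τ \ {v}`, `v ∈ τ` -/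
def cobd (f : Finset V → ZMod 2) (τ : Finset V) : ZMod 2 := ∑ v ∈ τ, f (τ.erase v)

/-- `a` belongs to `B^i`: a constant function if `i = 0`, a coboundary if `i ≥ 1` -/
def IsCoboundary (i : ℕ) (a : Finset V → ZMod 2) : Prop :=
  (i = 0 ∧ ∃ c : ZMod 2, ∀ σ, a σ = c) ∨ (1 ≤ i ∧ ∃ g : Finset V → ZMod 2, ∀ σ, a σ = cobd g σ)

/-- `ε`-coboundary expander: for `i < d` and every `i`-cochain `f` there is `a ∈ B^i` with
`ε ‖f - a‖_i ≤ ‖δ f‖_{i+1}`, that is, `‖δ f‖_{i+1} ≥ ε dist_i(f, B^i)` -/
def IsCoboundaryExpander (K : Finset (Finset V)) (d : ℕ) (ε : ℝ) : Prop :=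
  ∀ i, i < d → ∀ f : Finset V → ZMod 2, ∃ a : Finset V → ZMod 2, IsCoboundary i a ∧
    ε * cnorm K d i (fun σ => f σ - a σ) ≤ cnorm K d (i + 1) (cobd f)

/-- every vertex lies in at most `D` faces with `d + 1` vertices -/
def DegreeLE [Fintype V] (K : Finset (Finset V)) (d D : ℕ) : Prop :=
  ∀ v : V, ((faces K d).filter (fun τ => v ∈ τ)).card ≤ D

/-- the graph of the complex: two distinct vertices are adjacent if they form a face -/
def skelGraph (K : Finset (Finset V)) : SimpleGraph V :=
  SimpleGraph.fromRel (fun u v => ({u, v} : Finset V) ∈ K)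

/-- the statement of Q1 for the dimension `d`: there are `D` and `ε > 0` and connected pure
`d`-dimensional complexes with arbitrarily many vertices, each of degree at most `D` and each
an `ε`-coboundary expander -/
def BoundedDegreeExpandersExist (d : ℕ) : Prop :=
  ∃ (D : ℕ) (ε : ℝ), 0 < ε ∧ ∀ n : ℕ, ∃ (m : ℕ) (K : Finset (Finset (Fin m))),
    n ≤ m ∧ IsPureComplex K d ∧ (skelGraph K).Connected ∧ DegreeLE K d D ∧
      IsCoboundaryExpander K d ε

/-- the `e`-skeleton: the faces with at most `e + 1` vertices -/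
def skel (K : Finset (Finset V)) (e : ℕ) : Finset (Finset V) := K.filter (fun s => s.card ≤ e + 1)

end Vale.Agent.Lib.P067
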