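import Vale.Agent.Lib.P067.Reduction

/-!
# Skeleta of every codimension of a bounded-degree coboundary expander

Iterating `skeleton_expander`: if `K` is a pure `(e+k)`-dimensional complex of degree at most
`D` which is an `ε`-coboundary expander, then its `e`-skeleton is a pure `e`-dimensional complex
of degree at most `D (e+k)(e+k-1)...(e+1)` which is an `ε / C`-coboundary expander, where `C` is
the product over `j < k` of `(D (e+k)(e+k-1)...(e+k-j+1))^2`.
-/

namespace Vale.Agent.Lib.P067

open Finset

/-- the `e`-skeleton of the `(e+1)`-skeleton is the `e`-skeleton -/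
lemma skel_skel {V : Type*} (K : Finset (Finset V)) (e : ℕ) :
    skel (skel K (e + 1)) e = skel K e := by
  ext s
  simp only [skel, mem_filter]
  constructor
  · rintro ⟨⟨h1, _⟩, h2⟩
    exact ⟨h1, h2⟩
  · rintro ⟨h1, h2⟩
    exact ⟨⟨h1, by omega⟩, h2⟩

/-- a pure `e`-dimensional complex is its own `e`-skeleton -/
lemma skel_self {V : Type*} [Fintype V] {K : Finset (Finset V)} {e : ℕ}
    (hK : IsPureComplex K e) : skel K e = K := by
  obtain ⟨_, _, _, h4⟩ := hK
  ext s
  simp only [skel, mem_filter]
  constructor
  · exact fun h => h.1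
  · intro hs
    obtain ⟨t, _, hst, htc⟩ := h4 s hs
    exact ⟨hs, htc ▸ card_le_card hst⟩

/-- The `e`-skeleton of a pure `(e+k)`-dimensional `ε`-coboundary expander of degree at most `D`
is a pure `e`-dimensional coboundary expander, with explicit degree bound and constant. -/
theorem skeleton_iterated {V : Type*} [Fintype V] [DecidableEq V] [Nonempty V] (k : ℕ) :
    ∀ (e : ℕ) {K : Finset (Finset V)} {D : ℕ} {ε : ℝ},
      IsPureComplex K (e + k) → DegreeLE K (e + k) D → 0 ≤ ε →
      IsCoboundaryExpander K (e + k) ε →
      IsPureComplex (skel K e) e ∧ DegreeLE (skel K e) e (D * (e + k).descFactorial k) ∧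
        IsCoboundaryExpander (skel K e) e
          (ε / ∏ j ∈ range k, ((D * (e + k).descFactorial j : ℕ) : ℝ) ^ 2) := by
  induction k with
  | zero =>
    intro e K D ε hK hD hε hexp
    rw [Nat.add_zero] at hK hD hexp
    rw [skel_self hK]
    refine ⟨hK, ?_, ?_⟩
    · simpa using hD
    · simpa using hexp
  | succ k ih =>
    intro e K D ε hK hD hε hexp
    have hek : e + (k + 1) = e + 1 + k := by omega
    rw [hek] at hK hD hexp
    obtain ⟨h1, h2, h3⟩ := ih (e + 1) hK hD hε hexp
    have hε' : 0 ≤ ε / ∏ j ∈ range k, ((D * (e + 1 + k).descFactorial j : ℕ) : ℝ) ^ 2 := by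
      positivity
    obtain ⟨g1, g2, g3⟩ := skeleton_expander h1 h2 hε' h3
    rw [skel_skel] at g1 g2 g3
    rw [hek]
    refine ⟨g1, ?_, ?_⟩
    · have hdeg : D * (e + 1 + k).descFactorial (k + 1)
          = (e + 1) * (D * (e + 1 + k).descFactorial k) := by
        rw [Nat.descFactorial_succ]
        have : e + 1 + k - k = e + 1 := by omega
        rw [this]
        ring
      rw [hdeg]
      exact g2
    · rw [Finset.prod_range_succ, ← div_div]
      exact g3

end Vale.Agent.Lib.P067
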