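import Vale.Agent.Lib.P067.Skeleton

/-!
# Dimension monotonicity for bounded-degree coboundary expanders
-/

namespace Vale.Agent.Lib.P067

open Finset

set_option linter.unusedSectionVars false

variable {V : Type*} [Fintype V] [DecidableEq V]

lemma top_card_pos [Nonempty V] {K : Finset (Finset V)} {d : ℕ} (hK : IsPureComplex K d) :
    0 < (faces K d).card := by
  obtain ⟨h1, h2, h3, h4⟩ := hK
  obtain ⟨t, ht, _, htc⟩ := h4 {Classical.arbitrary V} (h3 _)
  exact Finset.card_pos.2 ⟨t, mem_faces.2 ⟨ht, htc⟩⟩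

lemma degree_pos [Nonempty V] {K : Finset (Finset V)} {d D : ℕ} (hK : IsPureComplex K d)
    (hD : DegreeLE K d D) : 0 < D := by
  obtain ⟨h1, h2, h3, h4⟩ := hK
  set v := Classical.arbitrary V
  obtain ⟨t, ht, hvt, htc⟩ := h4 {v} (h3 _)
  have : 0 < ((faces K d).filter (fun τ => v ∈ τ)).card :=
    Finset.card_pos.2 ⟨t, mem_filter.2 ⟨mem_faces.2 ⟨ht, htc⟩, hvt (mem_singleton_self v)⟩⟩
  exact lt_of_lt_of_le this (hD v)

/-- comparison of the weights of a face in the complex and in its skeleton -/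
lemma weight_compare [Nonempty V] {K : Finset (Finset V)} {e D : ℕ}
    (hK : IsPureComplex K (e + 1)) (hD : DegreeLE K (e + 1) D) (i : ℕ) (hi : i ≤ e)
    (σ : Finset V) (hσ : σ.card = i + 1) :
    weight (skel K e) e i σ ≤ D * weight K (e + 1) i σ ∧
      weight K (e + 1) i σ ≤ D * weight (skel K e) e i σ := by
  have hfs : faces (skel K e) e = faces K e := faces_skel K e e (le_refl e)
  obtain ⟨h1, h2⟩ := count_ab hK hD σ
  obtain ⟨h3, h4⟩ := count_ab hK hD (∅ : Finset V)
  simp only [empty_subset, filter_true, card_empty, Nat.sub_zero] at h3 h4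
  rw [hσ] at h1 h2
  have hk : e + 2 - (i + 1) = e + 1 - i := by omega
  rw [hk] at h1 h2
  have hc : (e + 1).choose (i + 1) * (e + 2) = (e + 2).choose (i + 1) * (e + 1 - i) := by
    have := Nat.choose_mul_succ_eq (e + 1) (i + 1)
    rw [show e + 1 + 1 = e + 2 from rfl, hk] at this
    exact this
  have ha0 : 0 < (faces K (e + 1)).card := top_card_pos hK
  have hDpos : 0 < D := degree_pos hK hD
  have hb0 : 0 < (faces K e).card := by
    by_contra h
    have h0 : (faces K e).card = 0 := by omega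
    rw [h0] at h4
    have : 0 < (e + 2) * (faces K (e + 1)).card := Nat.mul_pos (by omega) ha0
    omega
  have hc1 : 0 < (e + 1).choose (i + 1) := Nat.choose_pos (by omega)
  have hc2 : 0 < (e + 2).choose (i + 1) := Nat.choose_pos (by omega)
  set aσ := ((faces K (e + 1)).filter (fun τ => σ ⊆ τ)).card with haσ
  set bσ := ((faces K e).filter (fun ρ => σ ⊆ ρ)).card with hbσ
  set a0 := (faces K (e + 1)).card with ha0'
  set b0 := (faces K e).card with hb0'
  set c1 := (e + 1).choose (i + 1) with hc1'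
  set c2 := (e + 2).choose (i + 1) with hc2'
  set k := e + 1 - i with hk'
  -- the two inequalities in natural numbers
  have hN1 : bσ * (c2 * a0) ≤ D * aσ * (c1 * b0) := by
    calc bσ * (c2 * a0) ≤ (k * aσ) * (c2 * a0) := Nat.mul_le_mul_right _ h1
      _ = aσ * (c2 * k) * a0 := by ring
      _ = aσ * c1 * ((e + 2) * a0) := by rw [← hc]; ring
      _ ≤ aσ * c1 * (D * b0) := Nat.mul_le_mul_left _ h4
      _ = D * aσ * (c1 * b0) := by ring
  have hN2 : aσ * (c1 * b0) ≤ D * bσ * (c2 * a0) := by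
    calc aσ * (c1 * b0) ≤ aσ * (c1 * ((e + 2) * a0)) :=
          Nat.mul_le_mul_left _ (Nat.mul_le_mul_left _ h3)
      _ = (k * aσ) * c2 * a0 := by
          have : aσ * (c1 * ((e + 2) * a0)) = aσ * (c1 * (e + 2)) * a0 := by ring
          rw [this, hc]; ring
      _ ≤ (D * bσ) * c2 * a0 := Nat.mul_le_mul_right _ (Nat.mul_le_mul_right _ h2)
      _ = D * bσ * (c2 * a0) := by ring
  have hR1 : (bσ : ℝ) * ((c2 : ℝ) * a0) ≤ (D : ℝ) * aσ * ((c1 : ℝ) * b0) := by exact_mod_cast hN1
  have hR2 : (aσ : ℝ) * ((c1 : ℝ) * b0) ≤ (D : ℝ) * bσ * ((c2 : ℝ) * a0) := by exact_mod_cast hN2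
  have hp1 : (0 : ℝ) < (c1 : ℝ) * b0 := by
    have : (0 : ℝ) < c1 := by exact_mod_cast hc1
    have : (0 : ℝ) < b0 := by exact_mod_cast hb0
    positivity
  have hp2 : (0 : ℝ) < (c2 : ℝ) * a0 := by
    have : (0 : ℝ) < c2 := by exact_mod_cast hc2
    have : (0 : ℝ) < a0 := by exact_mod_cast ha0
    positivity
  unfold weight
  rw [hfs]
  constructor
  · rw [← mul_div_assoc, div_le_div_iff₀ hp1 hp2]
    exact hR1
  · rw [← mul_div_assoc, div_le_div_iff₀ hp2 hp1]
    exact hR2

/-- comparison of the norms of a cochain in the complex and in its skeleton -/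
lemma cnorm_compare [Nonempty V] {K : Finset (Finset V)} {e D : ℕ}
    (hK : IsPureComplex K (e + 1)) (hD : DegreeLE K (e + 1) D) (j : ℕ) (hj : j ≤ e)
    (h : Finset V → ZMod 2) :
    cnorm (skel K e) e j h ≤ D * cnorm K (e + 1) j h ∧
      cnorm K (e + 1) j h ≤ D * cnorm (skel K e) e j h := by
  unfold cnorm
  rw [faces_skel K e j hj, Finset.mul_sum, Finset.mul_sum]
  constructor
  · apply Finset.sum_le_sum
    intro σ hσ
    have hσ' := (mem_faces.1 (mem_filter.1 hσ).1).2
    exact (weight_compare hK hD j hj σ hσ').1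
  · apply Finset.sum_le_sum
    intro σ hσ
    have hσ' := (mem_faces.1 (mem_filter.1 hσ).1).2
    exact (weight_compare hK hD j hj σ hσ').2

lemma skelGraph_skel (K : Finset (Finset V)) (e : ℕ) (he : 1 ≤ e) :
    skelGraph (skel K e) = skelGraph K := by
  ext u v
  simp only [skelGraph, SimpleGraph.fromRel_adj, skel, mem_filter]
  constructor
  · rintro ⟨hne, h | h⟩
    · exact ⟨hne, Or.inl h.1⟩
    · exact ⟨hne, Or.inr h.1⟩
  · rintro ⟨hne, h | h⟩
    · exact ⟨hne, Or.inl ⟨h, le_trans (Finset.card_le_two) (by omega)⟩⟩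
    · exact ⟨hne, Or.inr ⟨h, le_trans (Finset.card_le_two) (by omega)⟩⟩

/-- The `e`-skeleton of a pure `(e+1)`-dimensional `ε`-coboundary expander of degree at most
`D` is a pure `e`-dimensional `ε / D^2`-coboundary expander of degree at most `(e+1) D`. -/
theorem skeleton_expander [Nonempty V] {K : Finset (Finset V)} {e D : ℕ} {ε : ℝ}
    (hK : IsPureComplex K (e + 1)) (hD : DegreeLE K (e + 1) D) (hε : 0 ≤ ε)
    (hexp : IsCoboundaryExpander K (e + 1) ε) :
    IsPureComplex (skel K e) e ∧ DegreeLE (skel K e) e ((e + 1) * D) ∧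
      IsCoboundaryExpander (skel K e) e (ε / (D : ℝ) ^ 2) := by
  have hDpos : 0 < D := degree_pos hK hD
  have hDR : (0 : ℝ) < D := by exact_mod_cast hDpos
  refine ⟨skel_pure hK, ?_, ?_⟩
  · intro v
    rw [faces_skel K e e (le_refl e)]
    have h1 := (count_ab hK hD ({v} : Finset V)).1
    simp only [singleton_subset_iff, card_singleton] at h1
    have h2 := hD v
    calc ((faces K e).filter (fun τ => v ∈ τ)).card
        ≤ (e + 2 - 1) * ((faces K (e + 1)).filter (fun τ => v ∈ τ)).card := h1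
      _ ≤ (e + 1) * D := Nat.mul_le_mul (by omega) h2
  · intro i hi f
    obtain ⟨a, ha, hineq⟩ := hexp i (by omega) f
    refine ⟨a, ha, ?_⟩
    have hc1 := (cnorm_compare hK hD i (by omega) (fun σ => f σ - a σ)).1
    have hc2 := (cnorm_compare hK hD (i + 1) (by omega) (cobd f)).2
    have hn0 : 0 ≤ cnorm K (e + 1) i (fun σ => f σ - a σ) := by
      unfold cnorm
      apply Finset.sum_nonneg
      intro σ _
      unfold weight
      positivity
    calc ε / (D : ℝ) ^ 2 * cnorm (skel K e) e i (fun σ => f σ - a σ)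
        ≤ ε / (D : ℝ) ^ 2 * (D * cnorm K (e + 1) i (fun σ => f σ - a σ)) :=
          mul_le_mul_of_nonneg_left hc1 (by positivity)
      _ = (ε * cnorm K (e + 1) i (fun σ => f σ - a σ)) / D := by
          field_simp
      _ ≤ cnorm K (e + 1) (i + 1) (cobd f) / D := by
          apply div_le_div_of_nonneg_right hineq (le_of_lt hDR)
      _ ≤ (D * cnorm (skel K e) e (i + 1) (cobd f)) / D := by
          apply div_le_div_of_nonneg_right hc2 (le_of_lt hDR)
      _ = cnorm (skel K e) e (i + 1) (cobd f) := by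
          field_simp

/-- If the statement of Q1 holds in dimension `e + 1 ≥ 2`, it holds in dimension `e`. -/
theorem exist_step (e : ℕ) (he : 1 ≤ e) (h : BoundedDegreeExpandersExist (e + 1)) :
    BoundedDegreeExpandersExist e := by
  obtain ⟨D, ε, hε, hall⟩ := h
  -- the degree bound is positive
  have hDpos : 0 < D := by
    obtain ⟨m, K, hm, hK, _, hD, _⟩ := hall 1
    haveI : Nonempty (Fin m) := ⟨⟨0, by omega⟩⟩
    exact degree_pos hK hD
  have hDR : (0 : ℝ) < D := by exact_mod_cast hDpos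
  refine ⟨(e + 1) * D, ε / (D : ℝ) ^ 2, by positivity, ?_⟩
  intro n
  obtain ⟨m, K, hm, hK, hconn, hD, hexp⟩ := hall (max n 1)
  haveI : Nonempty (Fin m) := ⟨⟨0, by omega⟩⟩
  obtain ⟨h1, h2, h3⟩ := skeleton_expander hK hD (le_of_lt hε) hexp
  refine ⟨m, skel K e, le_trans (le_max_left n 1) hm, h1, ?_, h2, h3⟩
  rw [skelGraph_skel K e he]
  exact hconn

/-- Dimension monotonicity: if the statement of Q1 holds in dimension `d`, it holds in every
dimension `d'` with `1 ≤ d' ≤ d`. -/
theorem exist_mono (d d' : ℕ) (h1 : 1 ≤ d') (h2 : d' ≤ d) (h : BoundedDegreeExpandersExist d) :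
    BoundedDegreeExpandersExist d' := by
  induction d, h2 using Nat.le_induction with
  | base => exact h
  | succ n hn ih => exact ih (exist_step n (le_trans h1 hn) h)

end Vale.Agent.Lib.P067
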