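import Vale.Agent.Lib.P067.Defs

/-!
# The codimension-one skeleton of a bounded-degree coboundary expander

If `K` is a pure `(e+1)`-dimensional complex of degree at most `D` which is an
`ε`-coboundary expander, then its `e`-skeleton is a pure `e`-dimensional complex of degree at
most `(e+1) D` which is an `ε / D^2`-coboundary expander.
-/

namespace Vale.Agent.Lib.P067

open Finset

set_option linter.unusedSectionVars false

variable {V : Type*} [Fintype V] [DecidableEq V]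

lemma mem_faces {K : Finset (Finset V)} {i : ℕ} {s : Finset V} :
    s ∈ faces K i ↔ s ∈ K ∧ s.card = i + 1 := by
  simp [faces]

lemma faces_skel (K : Finset (Finset V)) (e j : ℕ) (hj : j ≤ e) :
    faces (skel K e) j = faces K j := by
  ext s
  simp only [faces, skel, mem_filter]
  constructor
  · rintro ⟨⟨h1, _⟩, h2⟩
    exact ⟨h1, h2⟩
  · rintro ⟨h1, h2⟩
    exact ⟨⟨h1, by omega⟩, h2⟩

lemma skel_pure {K : Finset (Finset V)} {e : ℕ} (hK : IsPureComplex K (e + 1)) :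
    IsPureComplex (skel K e) e := by
  obtain ⟨h1, h2, h3, h4⟩ := hK
  refine ⟨?_, ?_, ?_, ?_⟩
  · intro s hs
    exact h1 s (mem_filter.1 hs).1
  · intro s hs t hts htne
    have := mem_filter.1 hs
    exact mem_filter.2 ⟨h2 s this.1 t hts htne, le_trans (card_le_card hts) this.2⟩
  · intro v
    exact mem_filter.2 ⟨h3 v, by simp⟩
  · intro s hs
    have hs' := mem_filter.1 hs
    obtain ⟨t, ht, hst, htc⟩ := h4 s hs'.1
    obtain ⟨u, hsu, hut, huc⟩ :=
      Finset.exists_subsuperset_card_eq hst hs'.2 (by omega : e + 1 ≤ t.card)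
    refine ⟨u, mem_filter.2 ⟨h2 t ht u hut ?_, by omega⟩, hsu, huc⟩
    exact (h1 s hs'.1).mono hsu

/-- the `e`-faces between `σ` and an `(e+1)`-face `τ ⊇ σ` are the sets `τ \ {u}`, `u ∈ τ \ σ` -/
lemma below_card {K : Finset (Finset V)} {e : ℕ} (hK : IsPureComplex K (e + 1))
    (σ τ : Finset V) (hτ : τ ∈ faces K (e + 1)) (hστ : σ ⊆ τ) :
    (((faces K e).filter (fun ρ => σ ⊆ ρ)).filter (fun ρ => ρ ⊆ τ)).card = e + 2 - σ.card := by
  obtain ⟨h1, h2, h3, h4⟩ := hK
  have hτ' := mem_faces.1 hτ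
  have hset : ((faces K e).filter (fun ρ => σ ⊆ ρ)).filter (fun ρ => ρ ⊆ τ)
      = (τ \ σ).image (fun u => τ.erase u) := by
    ext ρ
    simp only [mem_filter, mem_image, mem_sdiff, mem_faces]
    constructor
    · rintro ⟨⟨⟨hρK, hρc⟩, hσρ⟩, hρτ⟩
      have hc : (τ \ ρ).card = 1 := by
        rw [card_sdiff_of_subset hρτ]; omega
      obtain ⟨u, hu⟩ := Finset.card_eq_one.1 hc
      have hu' : u ∈ τ \ ρ := by rw [hu]; exact mem_singleton_self u
      rw [mem_sdiff] at hu'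
      refine ⟨u, ⟨hu'.1, fun h => hu'.2 (hσρ h)⟩, ?_⟩
      rw [← sdiff_singleton_eq_erase, ← hu, Finset.sdiff_sdiff_eq_self hρτ]
    · rintro ⟨u, ⟨huτ, huσ⟩, rfl⟩
      have hcard : (τ.erase u).card = e + 1 := by
        rw [card_erase_of_mem huτ]; omega
      refine ⟨⟨⟨h2 τ hτ'.1 _ (erase_subset u τ) ?_, hcard⟩, ?_⟩, erase_subset u τ⟩
      · rw [← Finset.card_pos]; omega
      · intro x hx
        exact mem_erase.2 ⟨fun h => huσ (h ▸ hx), hστ hx⟩
  rw [hset, card_image_of_injOn, card_sdiff_of_subset hστ, hτ'.2]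
  intro u hu u' hu' heq
  simp only [coe_sdiff, Set.mem_sdiff, mem_coe] at hu hu'
  by_contra hne
  have : u ∈ τ.erase u' := mem_erase.2 ⟨hne, hu.1⟩
  have heq' : τ.erase u = τ.erase u' := heq
  rw [← heq'] at this
  exact (notMem_erase u τ) this

/-- an `e`-face containing `σ` lies in at least one and at most `D` of the `(e+1)`-faces
containing `σ` -/
lemma above_card {K : Finset (Finset V)} {e D : ℕ} (hK : IsPureComplex K (e + 1))
    (hD : DegreeLE K (e + 1) D) (σ ρ : Finset V) (hρ : ρ ∈ faces K e) (hσρ : σ ⊆ ρ) :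
    1 ≤ (((faces K (e + 1)).filter (fun τ => σ ⊆ τ)).filter (fun τ => ρ ⊆ τ)).card ∧
      (((faces K (e + 1)).filter (fun τ => σ ⊆ τ)).filter (fun τ => ρ ⊆ τ)).card ≤ D := by
  obtain ⟨h1, h2, h3, h4⟩ := hK
  have hρ' := mem_faces.1 hρ
  constructor
  · obtain ⟨τ, hτK, hρτ, hτc⟩ := h4 ρ hρ'.1
    rw [Nat.succ_le_iff, Finset.card_pos]
    exact ⟨τ, mem_filter.2 ⟨mem_filter.2 ⟨mem_faces.2 ⟨hτK, hτc⟩, hσρ.trans hρτ⟩, hρτ⟩⟩
  · obtain ⟨v, hv⟩ := h1 ρ hρ'.1
    refine le_trans (card_le_card ?_) (hD v)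
    intro τ hτ
    simp only [mem_filter] at hτ ⊢
    exact ⟨hτ.1.1, hτ.2 hv⟩

/-- double counting between the `e`-faces and the `(e+1)`-faces containing `σ` -/
lemma count_ab {K : Finset (Finset V)} {e D : ℕ} (hK : IsPureComplex K (e + 1))
    (hD : DegreeLE K (e + 1) D) (σ : Finset V) :
    ((faces K e).filter (fun ρ => σ ⊆ ρ)).card
        ≤ (e + 2 - σ.card) * ((faces K (e + 1)).filter (fun τ => σ ⊆ τ)).card ∧
      (e + 2 - σ.card) * ((faces K (e + 1)).filter (fun τ => σ ⊆ τ)).card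
        ≤ D * ((faces K e).filter (fun ρ => σ ⊆ ρ)).card := by
  set A := (faces K (e + 1)).filter (fun τ => σ ⊆ τ) with hA
  set B := (faces K e).filter (fun ρ => σ ⊆ ρ) with hB
  have hdc := Finset.sum_card_bipartiteAbove_eq_sum_card_bipartiteBelow (s := B) (t := A)
    (r := fun ρ τ => ρ ⊆ τ)
  have hright : ∑ τ ∈ A, (B.bipartiteBelow (fun ρ τ => ρ ⊆ τ) τ).card
      = A.card * (e + 2 - σ.card) := by
    rw [Finset.sum_const_nat]
    intro τ hτ
    have hτ' := mem_filter.1 hτ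
    exact below_card hK σ τ hτ'.1 hτ'.2
  have hleft1 : B.card ≤ ∑ ρ ∈ B, (A.bipartiteAbove (fun ρ τ => ρ ⊆ τ) ρ).card := by
    have : B.card = ∑ _ρ ∈ B, 1 := by simp
    rw [this]
    apply Finset.sum_le_sum
    intro ρ hρ
    have hρ' := mem_filter.1 hρ
    exact (above_card hK hD σ ρ hρ'.1 hρ'.2).1
  have hleft2 : ∑ ρ ∈ B, (A.bipartiteAbove (fun ρ τ => ρ ⊆ τ) ρ).card ≤ B.card * D := by
    have : B.card * D = ∑ _ρ ∈ B, D := by simp
    rw [this]
    apply Finset.sum_le_sum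
    intro ρ hρ
    have hρ' := mem_filter.1 hρ
    exact (above_card hK hD σ ρ hρ'.1 hρ'.2).2
  rw [hdc, hright] at hleft1 hleft2
  constructor
  · rw [Nat.mul_comm]; exact hleft1
  · rw [Nat.mul_comm, Nat.mul_comm D]; exact hleft2

end Vale.Agent.Lib.P067
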